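import Mathlib

open IntermediateField Topology

namespace Vale.Agent.Results.P024.Reductions

universe u

/-- E has no nontrivial abelian algebraic extension. -/
def SolvablyClosed (E : Type u) [Field E] : Prop :=
  ∀ (L : Type u) [Field L] [Algebra E L], IsGalois E L →
    (∀ σ τ : Gal(L/E), σ * τ = τ * σ) → Function.Surjective (algebraMap E L)

/-- j induces α on the subgroup N. -/
def InducesOn {F₁ E₁ F₂ E₂ : Type u} [Field F₁] [Field E₁] [Field F₂] [Field E₂]
    [Algebra F₁ E₁] [Algebra F₂ E₂] (N : Subgroup Gal(E₁/F₁))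
    (α : Gal(E₁/F₁) →* Gal(E₂/F₂)) (j : E₂ →+* E₁) : Prop :=
  ∀ g ∈ N, ∀ x : E₂, g (j x) = j (α g x)

section A
variable {F₁ E₁ F₂ E₂ : Type u} [Field F₁] [Field E₁] [Field F₂] [Field E₂]
    [Algebra F₁ E₁] [Algebra F₂ E₂]

/-- corestriction of α to the Galois group over the fixed field of its image -/
noncomputable def corestr (α : Gal(E₁/F₁) →* Gal(E₂/F₂)) (K : IntermediateField F₂ E₂)
    (h : ∀ g, α g ∈ K.fixingSubgroup) : Gal(E₁/F₁) →* Gal(E₂/K) :=
  (fixingSubgroupEquiv K).toMonoidHom.comp (α.codRestrict K.fixingSubgroup h)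

lemma corestr_apply (α : Gal(E₁/F₁) →* Gal(E₂/F₂)) (K : IntermediateField F₂ E₂)
    (h : ∀ g, α g ∈ K.fixingSubgroup) (g : Gal(E₁/F₁)) (x : E₂) :
    corestr α K h g x = α g x := rfl

lemma corestr_continuous (α : Gal(E₁/F₁) →* Gal(E₂/F₂)) (hα : Continuous α)
    (K : IntermediateField F₂ E₂) [FiniteDimensional F₂ K]
    (h : ∀ g, α g ∈ K.fixingSubgroup) : Continuous (corestr α K h) := by
  apply continuous_of_continuousAt_one
  rw [ContinuousAt, map_one]
  intro s hs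
  rw [krullTopology_mem_nhds_one_iff] at hs
  obtain ⟨L, hL, hLs⟩ := hs
  have hfin : FiniteDimensional F₂ (L.restrictScalars F₂) := by
    have : FiniteDimensional F₂ L := FiniteDimensional.trans F₂ K L
    exact this
  have hopen : IsOpen ((L.restrictScalars F₂).fixingSubgroup : Set Gal(E₂/F₂)) :=
    IntermediateField.fixingSubgroup_isOpen _
  have h1 : α ⁻¹' ((L.restrictScalars F₂).fixingSubgroup : Set Gal(E₂/F₂)) ∈ 𝓝 (1 : Gal(E₁/F₁)) := by
    apply (hopen.preimage hα).mem_nhds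
    simp
  rw [Filter.mem_map]
  refine Filter.mem_of_superset h1 ?_
  intro g hg
  apply hLs
  simp only [Set.mem_preimage, SetLike.mem_coe] at hg ⊢
  rw [IntermediateField.mem_fixingSubgroup_iff] at hg ⊢
  intro x hx
  rw [corestr_apply]
  exact hg x hx

end A

/-- Q1 for surjective continuous homomorphisms only. -/
def Q1Surj : Prop :=
  ∀ (F₁ E₁ F₂ E₂ : Type u) [Field F₁] [Field E₁] [Field F₂] [Field E₂]
    [NumberField F₁] [NumberField F₂] [Algebra F₁ E₁] [Algebra F₂ E₂]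
    [IsGalois F₁ E₁] [IsGalois F₂ E₂], SolvablyClosed E₁ → SolvablyClosed E₂ →
    ∀ α : Gal(E₁/F₁) →* Gal(E₂/F₂), Continuous α → Function.Surjective α →
      ∃ j : E₂ →+* E₁, InducesOn ⊤ α j

/-- Q1 as posed: continuous homomorphisms with open image. -/
def Q1Open : Prop :=
  ∀ (F₁ E₁ F₂ E₂ : Type u) [Field F₁] [Field E₁] [Field F₂] [Field E₂]
    [NumberField F₁] [NumberField F₂] [Algebra F₁ E₁] [Algebra F₂ E₂]
    [IsGalois F₁ E₁] [IsGalois F₂ E₂], SolvablyClosed E₁ → SolvablyClosed E₂ →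
    ∀ α : Gal(E₁/F₁) →* Gal(E₂/F₂), Continuous α → IsOpen (Set.range α) →
      ∃ j : E₂ →+* E₁, InducesOn ⊤ α j

theorem surj_reduction : Q1Surj.{u} → Q1Open.{u} := by
  intro hS F₁ E₁ F₂ E₂ _ _ _ _ _ _ _ _ _ _ h1 h2 α hα hopen
  have hopen' : IsOpen (α.range : Set Gal(E₂/F₂)) := by
    simpa using hopen
  have hclosed : IsClosed (α.range : Set Gal(E₂/F₂)) := Subgroup.isClosed_of_isOpen _ hopen'
  set K : IntermediateField F₂ E₂ := IntermediateField.fixedField α.range with hK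
  have hfix : K.fixingSubgroup = α.range :=
    InfiniteGalois.fixingSubgroup_fixedField ⟨α.range, hclosed⟩
  have hfd : FiniteDimensional F₂ K := by
    rw [← InfiniteGalois.isOpen_iff_finite, hfix]
    exact hopen'
  have hnf : NumberField K := NumberField.of_module_finite F₂ K
  have hmem : ∀ g, α g ∈ K.fixingSubgroup := by
    intro g; rw [hfix]; exact ⟨g, rfl⟩
  have hsurj : Function.Surjective (corestr α K hmem) := by
    intro σ
    have h3 : ((fixingSubgroupEquiv K).symm σ : Gal(E₂/F₂)) ∈ α.range := by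
      rw [← hfix]; exact ((fixingSubgroupEquiv K).symm σ).2
    obtain ⟨g, hg⟩ := h3
    refine ⟨g, ?_⟩
    apply AlgEquiv.ext
    intro x
    rw [corestr_apply, hg]
    rfl
  obtain ⟨j, hj⟩ := hS F₁ E₁ K E₂ h1 h2 (corestr α K hmem) (corestr_continuous α hα K hmem) hsurj
  exact ⟨j, fun g hg x => hj g hg x⟩

/-- Galois descent in the source. -/
theorem descent {F₁ E₁ F₂ E₂ : Type u} [Field F₁] [Field E₁] [Field F₂] [Field E₂]
    [Algebra F₁ E₁] [Algebra F₂ E₂] (α : Gal(E₁/F₁) →* Gal(E₂/F₂))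
    (N : Subgroup Gal(E₁/F₁)) [N.Normal] (j : E₂ →+* E₁) (hj : InducesOn N α j)
    (huniq : ∀ j' : E₂ →+* E₁, InducesOn N α j' → j' = j) : InducesOn ⊤ α j := by
  intro g _ x
  let j' : E₂ →+* E₁ := ((g⁻¹ : Gal(E₁/F₁)) : E₁ →+* E₁).comp (j.comp ((α g : Gal(E₂/F₂)) : E₂ →+* E₂))
  have hj' : InducesOn N α j' := by
    intro h hh y
    have hc : g * h * g⁻¹ ∈ N := Subgroup.Normal.conj_mem inferInstance h hh g
    have h1 := hj (g * h * g⁻¹) hc (α g y)
    have h2 : α (g * h * g⁻¹) (α g y) = α g (α h y) := by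
      simp [map_mul, AlgEquiv.mul_apply]
    rw [h2] at h1
    show h (g⁻¹ (j (α g y))) = g⁻¹ (j (α g (α h y)))
    rw [← h1]
    simp [AlgEquiv.mul_apply]
  have h3 := huniq j' hj'
  have h4 : j' x = j x := by rw [h3]
  have h5 : g⁻¹ (j (α g x)) = j x := h4
  rw [← h5]
  exact g.apply_symm_apply _

theorem result :
    (Q1Surj.{u} → Q1Open.{u}) ∧
    (∀ (F₁ E₁ F₂ E₂ : Type u) [Field F₁] [Field E₁] [Field F₂] [Field E₂]
      [Algebra F₁ E₁] [Algebra F₂ E₂] (α : Gal(E₁/F₁) →* Gal(E₂/F₂))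
      (N : Subgroup Gal(E₁/F₁)) [N.Normal] (j : E₂ →+* E₁), InducesOn N α j →
      (∀ j' : E₂ →+* E₁, InducesOn N α j' → j' = j) → InducesOn ⊤ α j) :=
  ⟨surj_reduction, fun _ _ _ _ _ _ _ _ _ _ α N _ j hj hu => descent α N j hj hu⟩

end Vale.Agent.Results.P024.Reductions
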